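import Vale.Agent.P091.AD.H134.Refine

/-!
# P091, block AD: the output of section 5 (row AD-11, helper188)
-/

set_option autoImplicit false

open Finset Real
open Vale.Agent.P065.Ent

noncomputable section

namespace Vale.Agent.P091.AD.H188

open Vale.Agent.P091.AD

/-! ## Powers of the parameter `u = UU R` -/

theorem rpow_pow_nat {X : ℝ} (hX : 0 ≤ X) (n : ℕ) (a : ℝ) (h : a = 0.01 * n) :
    X ^ a = (X ^ (0.01 : ℝ)) ^ n := by
  rw [h, rpow_mul hX, rpow_natCast]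

theorem log_eq {R : ℝ} (hR : 0 ≤ log R) : log R = UU R ^ 100 := by
  have h := rpow_pow_nat hR 100 1 (by norm_num)
  rw [rpow_one] at h
  exact h

theorem LL_eq {R : ℝ} (hR : 0 ≤ log R) : LL R = UU R ^ 60 :=
  rpow_pow_nat hR 60 0.6 (by norm_num)

theorem p05_eq {R : ℝ} (hR : 0 ≤ log R) : (log R) ^ (-0.05 : ℝ) = (UU R ^ 5)⁻¹ := by
  rw [rpow_neg hR, rpow_pow_nat hR 5 0.05 (by norm_num)]
  rfl

theorem p5_eq {R : ℝ} (hR : 0 ≤ log R) : (log R) ^ (-0.5 : ℝ) = (UU R ^ 50)⁻¹ := by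
  rw [rpow_neg hR, rpow_pow_nat hR 50 0.5 (by norm_num)]
  rfl

theorem p01_eq {R : ℝ} (hR : 0 ≤ log R) : (log R) ^ (-0.01 : ℝ) = (UU R)⁻¹ := by
  rw [rpow_neg hR]
  rfl

/-! ## Concavity -/

section conc
variable {Γ : Type} [AddCommGroup Γ] (hHM : HMono) (lam : Law Γ)
include hHM

theorem h_mono : Monotone lam.h := monotone_nat_of_le_succ fun n => (hHM Γ lam n).2.1

theorem d_anti : Antitone fun n => lam.h (n + 1) - lam.h n :=
  antitone_nat_of_succ_le fun n => (hHM Γ lam n).2.2.1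

theorem slope_le (a b : ℕ) (hab : a ≤ b) :
    ((b : ℝ) - a) * (lam.h (b + 1) - lam.h b) ≤ lam.h b - lam.h a := by
  induction b, hab using Nat.le_induction with
  | base => simp
  | succ b hab ih =>
    have h1 : lam.h (b + 1 + 1) - lam.h (b + 1) ≤ lam.h (b + 1) - lam.h b := (hHM Γ lam b).2.2.1
    have h2 : (0 : ℝ) ≤ (b : ℝ) - a := sub_nonneg.mpr (Nat.cast_le.mpr hab)
    have h3 := mul_le_mul_of_nonneg_left h1 h2
    push_cast
    nlinarith

end conc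

/-! ## The uniform law -/

section unif
variable {Γ : Type}

/-- the uniform law of `A` with trivial labels -/
def unif (A : Finset Γ) (hA : A.Nonempty) : Law Γ where
  Ω := {x // x ∈ A}
  μ := fun _ => 1 / (A.card : ℝ)
  prob := by
    refine ⟨fun _ => by positivity, ?_⟩
    rw [sum_const, card_univ, Fintype.card_coe, nsmul_eq_mul]
    have : (A.card : ℝ) ≠ 0 := Nat.cast_ne_zero.mpr hA.card_pos.ne'
    field_simp
  Z := Unit
  z := fun _ => ()
  a := fun x => x.1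

theorem unif_cost (A : Finset Γ) (hA : A.Nonempty) : (unif A hA).costLe A 0 := by
  classical
  intro ω
  refine ⟨ω.2, ?_⟩
  have hc : (A.card : ℝ) ≠ 0 := Nat.cast_ne_zero.mpr hA.card_pos.ne'
  have h1 : Pr (unif A hA).μ (fun ω => ((unif A hA).a ω, (unif A hA).z ω))
      ((unif A hA).a ω, (unif A hA).z ω) = 1 / (A.card : ℝ) := by
    unfold Pr
    rw [Finset.sum_eq_single ω]
    · rw [if_pos rfl]; rfl
    · intro b _ hb
      rw [if_neg]
      intro h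
      exact hb (Subtype.ext (Prod.mk.inj h).1)
    · intro h; exact absurd (mem_univ _) h
  have h2 : Pr (unif A hA).μ (unif A hA).z ((unif A hA).z ω) = 1 := by
    unfold Pr
    rw [← (unif A hA).prob.sum]
    exact sum_congr rfl fun b _ => if_pos rfl
  rw [h1, h2, exp_zero, mul_one, one_div, inv_mul_cancel₀ hc]

end unif

theorem costLe_mono {Γ : Type} {lam : Law Γ} {A : Finset Γ} {c c' : ℝ} (h : lam.costLe A c)
    (hc : c ≤ c') : lam.costLe A c' := fun ω =>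
  ⟨(h ω).1, (h ω).2.trans (mul_le_mul_of_nonneg_right (exp_le_exp.mpr hc) (Pr_nonneg lam.prob _ _))⟩

/-! ## The numerical facts about the parameters -/

/-- `R` is large in terms of the constants -/
structure Par (CC CB R : ℝ) : Prop where
  hC : 0 < CC
  hB : 0 < CB
  hu : 1000 + 100 * CC + 100 * CB ≤ UU R
  hX : log R = UU R ^ 100
  hR : UU R ^ 100 ≤ R
  hhalf : 16 * UU R * exp (LL R) * R ^ (1 / 2 : ℝ) ≤ R

theorem le_of_pow100 {a b : ℝ} (ha : 0 ≤ a) (hb : 0 ≤ b) (h : a ^ 100 ≤ b ^ 100) : a ≤ b :=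
  (pow_le_pow_iff_left₀ ha hb (Nat.succ_ne_zero 99)).mp h

theorem par_exists (CC CB : ℝ) (hC : 0 < CC) (hB : 0 < CB) :
    ∃ R0 : ℝ, ∀ R : ℝ, R0 ≤ R → Par CC CB R := by
  have hB0 : (0 : ℝ) ≤ 1000 + 100 * CC + 100 * CB := by positivity
  obtain ⟨B, hBd⟩ : ∃ B : ℝ, B = 1000 + 100 * CC + 100 * CB := ⟨_, rfl⟩
  rw [← hBd] at hB0
  refine ⟨exp (B ^ 100), fun R hR => ?_⟩
  have hR0 : 0 < R := (exp_pos _).trans_le hR
  have hlog : B ^ 100 ≤ log R := by
    rw [le_log_iff_exp_le hR0]; exact hR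
  have hX0 : 0 ≤ log R := le_trans (pow_nonneg hB0 _) hlog
  have hu0 : 0 ≤ UU R := rpow_nonneg hX0 _
  have hX : log R = UU R ^ 100 := log_eq hX0
  have hu : 1000 + 100 * CC + 100 * CB ≤ UU R := by
    rw [hX] at hlog
    rw [← hBd]
    exact le_of_pow100 hB0 hu0 hlog
  have hu1 : 1000 ≤ UU R := by linarith
  have h1u : 1 ≤ UU R := by linarith
  refine ⟨hC, hB, hu, hX, ?_, ?_⟩
  · rw [← hX]
    have := log_le_sub_one_of_pos hR0
    linarith
  · have e1 : R = exp (UU R ^ 100) := by rw [← hX, exp_log hR0]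
    have e2 : R ^ (1 / 2 : ℝ) = exp (UU R ^ 100 / 2) := by
      rw [rpow_def_of_pos hR0, hX]; congr 1; ring
    rw [e2, LL_eq hX0]
    have h16 : (16 : ℝ) ≤ exp 16 := by linarith [add_one_le_exp (16 : ℝ)]
    have huu : UU R ≤ exp (UU R) := by linarith [add_one_le_exp (UU R)]
    calc 16 * UU R * exp (UU R ^ 60) * exp (UU R ^ 100 / 2)
        ≤ exp 16 * exp (UU R) * exp (UU R ^ 60) * exp (UU R ^ 100 / 2) := by gcongr
      _ = exp (16 + UU R + UU R ^ 60 + UU R ^ 100 / 2) := by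
        rw [exp_add, exp_add, exp_add]
      _ ≤ exp (UU R ^ 100) := by
        rw [exp_le_exp]
        have a1 : UU R ^ 60 * 1000 ≤ UU R ^ 100 := by
          calc UU R ^ 60 * 1000 ≤ UU R ^ 60 * UU R ^ 40 := by
                gcongr
                calc (1000 : ℝ) ≤ UU R := hu1
                  _ = UU R ^ 1 := (pow_one _).symm
                  _ ≤ UU R ^ 40 := pow_le_pow_right₀ h1u (by norm_num)
            _ = UU R ^ 100 := by rw [← pow_add]
        have a2 : UU R ≤ UU R ^ 60 := by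
          calc UU R = UU R ^ 1 := (pow_one _).symm
            _ ≤ UU R ^ 60 := pow_le_pow_right₀ h1u (by norm_num)
        linarith
      _ = R := e1.symm

namespace Par
variable {CC CB R : ℝ} (h : Par CC CB R)
include h

theorem u1000 : 1000 ≤ UU R := by linarith [h.hu, h.hC, h.hB]
theorem u1 : 1 ≤ UU R := by linarith [h.u1000]
theorem u0 : 0 < UU R := by linarith [h.u1000]
theorem R0 : 0 < R := (pow_pos h.u0 100).trans_le h.hR
theorem X0 : 0 ≤ log R := by rw [h.hX]; exact (pow_pos h.u0 100).le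
theorem R1 : 1 ≤ R := (one_le_pow₀ h.u1).trans h.hR

/-- `R / u ≤ 2 ^ M` forces `log R ≤ M` -/
theorem le_M {M : ℕ} (hM : R / UU R ≤ 2 ^ M) : UU R ^ 100 ≤ M := by
  by_contra hlt
  push Not at hlt
  have e1 : R = exp (UU R ^ 100) := by rw [← h.hX, exp_log h.R0]
  have huu : UU R ≤ exp (UU R) := by linarith [add_one_le_exp (UU R)]
  have h1 : exp (UU R ^ 100 - UU R) ≤ R / UU R := by
    rw [exp_sub, ← e1]
    exact div_le_div_of_nonneg_left h.R0.le h.u0 huu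
  have h2 : (2 : ℝ) ^ M < exp (0.7 * UU R ^ 100) := by
    have : (2 : ℝ) ^ M = exp (log 2 * M) := by
      rw [exp_mul, exp_log (by norm_num), rpow_natCast]
    rw [this, exp_lt_exp]
    have hl := log_two_lt_d9
    have hl0 : 0 < log 2 := log_pos (by norm_num)
    have hM0 : (0 : ℝ) ≤ M := Nat.cast_nonneg M
    nlinarith
  have h3 : exp (UU R ^ 100 - UU R) < exp (0.7 * UU R ^ 100) := (h1.trans hM).trans_lt h2
  rw [exp_lt_exp] at h3
  have a1 : UU R * 1000 ≤ UU R ^ 100 := by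
    calc UU R * 1000 ≤ UU R * UU R := by gcongr; exact h.u0.le; exact h.u1000
      _ = UU R ^ 2 := by ring
      _ ≤ UU R ^ 100 := pow_le_pow_right₀ h.u1 (by norm_num)
  linarith

end Par

/-! ## Lemma C followed by Lemma B -/

/-- the body of Lemma B -/
def BodyB (C R0 : ℝ) : Prop := ∀ (Γ : Type) [AddCommGroup Γ] (A : Finset Γ)
  (lam : Law Γ) (R E c : ℝ) (I0 t : ℕ), R0 ≤ R → lam.costLe A c → lam.h (2 ^ I0) ≤ E →
  E ≤ 1.3 * R → R ^ (1 / 2 : ℝ) ≤ 2 ^ I0 → (2 : ℝ) ^ t ≤ 64 * exp (LL R) →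
  ∃ lam' : Law Γ, lam'.costLe A (c + C * R * (log R) ^ (-0.05 : ℝ)) ∧
    lam'.h (2 ^ (I0 + t)) ≤ E + C * R * (log R) ^ (-0.05 : ℝ)

/-- the body of Lemma C -/
def BodyC (C R0 : ℝ) : Prop := ∀ (Γ : Type) [AddCommGroup Γ] (A : Finset Γ)
  (lam : Law Γ) (R c : ℝ) (m : ℕ), R0 ≤ R → log A.card ≤ 1.1 * R → lam.costLe A c →
  R / UU R ≤ 2 ^ m → (2 : ℝ) ^ m ≤ 4 * R / UU R → lam.Theta (2 ^ m) ≤ 1.1 * R →
  ∃ (lam' : Law Γ) (k : ℕ), 2 ^ m * exp (- LL R) ≤ 2 ^ k ∧ k ≤ m ∧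
    lam'.costLe A (c + C * R * (log R) ^ (-0.5 : ℝ)) ∧
    lam'.h (2 ^ k / 16) ≤ (1 + C / UU R) * lam.Theta (2 ^ m) + C * R / UU R

theorem step_CB {CC RC CB RB : ℝ} (hC : BodyC CC RC) (hB : BodyB CB RB) {Γ : Type}
    [AddCommGroup Γ] {A : Finset Γ} {lam : Law Γ} {R c : ℝ} {n m : ℕ} (h : Par CC CB R)
    (hRC : RC ≤ R) (hRB : RB ≤ R) (hA : log A.card ≤ 1.1 * R) (hc : lam.costLe A c)
    (hnm : n ≤ m) (hmn : m ≤ n + 1) (h1 : R / UU R ≤ 2 ^ m) (h2 : (2 : ℝ) ^ m ≤ 4 * R / UU R)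
    (hT : lam.Theta (2 ^ m) ≤ 1.1 * R) :
    ∃ lam' : Law Γ, lam'.costLe A (c + CC * R / UU R ^ 50 + CB * R / UU R ^ 5) ∧
      lam'.h (2 ^ n) ≤ lam.Theta (2 ^ m) + 2.1 * CC * R / UU R + CB * R / UU R ^ 5 := by
  have hu0 := h.u0
  have hR0 := h.R0
  obtain ⟨l1, k, hk1, hk2, hk3, hk4⟩ := hC Γ A lam R c m hRC hA hc h1 h2 hT
  have hhalf := h.hhalf
  have hk5 : 16 * R ^ (1 / 2 : ℝ) ≤ 2 ^ k := by
    refine le_trans ?_ hk1
    have : 16 * R ^ (1 / 2 : ℝ) ≤ R / UU R * exp (- LL R) := by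
      rw [exp_neg, ← div_eq_mul_inv, le_div_iff₀ (exp_pos _), le_div_iff₀ hu0]
      calc 16 * R ^ (1 / 2 : ℝ) * exp (LL R) * UU R
          = 16 * UU R * exp (LL R) * R ^ (1 / 2 : ℝ) := by ring
        _ ≤ R := hhalf
    exact this.trans (mul_le_mul_of_nonneg_right h1 (exp_pos _).le)
  have hsq : 1 ≤ R ^ (1 / 2 : ℝ) := one_le_rpow h.R1 (by norm_num)
  have hk6 : 4 ≤ k := by
    have : (2 : ℝ) ^ 4 ≤ 2 ^ k := by
      calc (2 : ℝ) ^ 4 = 16 * 1 := by norm_num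
        _ ≤ 16 * R ^ (1 / 2 : ℝ) := by gcongr
        _ ≤ 2 ^ k := hk5
    exact (pow_le_pow_iff_right₀ (by norm_num)).mp this
  obtain ⟨i, rfl⟩ := Nat.exists_eq_add_of_le hk6
  have e16 : 2 ^ (4 + i) / 16 = 2 ^ i := by
    rw [pow_add]
    exact Nat.mul_div_cancel_left _ (by norm_num)
  rw [e16] at hk4
  set T := lam.Theta (2 ^ m) with hTdef
  have hE : (1 + CC / UU R) * T + CC * R / UU R ≤ T + 2.1 * CC * R / UU R := by
    have : CC / UU R * T ≤ CC / UU R * (1.1 * R) :=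
      mul_le_mul_of_nonneg_left hT (div_pos h.hC hu0).le
    have e : CC / UU R * (1.1 * R) + CC * R / UU R = 2.1 * CC * R / UU R := by
      field_simp; ring
    linarith
  have hsmall : 2.1 * CC * R / UU R ≤ 0.05 * R := by
    rw [div_le_iff₀ hu0]
    nlinarith [h.hu, h.hC, h.hB, mul_pos h.hC hR0, mul_pos h.hB hR0]
  obtain ⟨t, ht⟩ : ∃ t, i + t = n := ⟨n - i, by omega⟩
  have ht2 : (2 : ℝ) ^ t ≤ 64 * exp (LL R) := by
    have e1 : (2 : ℝ) ^ t * 2 ^ i ≤ (16 * exp (LL R)) * 2 ^ i := by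
      have b1 : (2 : ℝ) ^ m ≤ 2 ^ (4 + i) * exp (LL R) := by
        have := mul_le_mul_of_nonneg_right hk1 (exp_pos (LL R)).le
        rwa [mul_assoc, ← exp_add, neg_add_cancel, exp_zero, mul_one] at this
      have b2 : (2 : ℝ) ^ n ≤ 2 ^ m := pow_le_pow_right₀ (by norm_num) hnm
      calc (2 : ℝ) ^ t * 2 ^ i = 2 ^ n := by rw [← pow_add, add_comm t i, ht]
        _ ≤ 2 ^ m := b2
        _ ≤ 2 ^ (4 + i) * exp (LL R) := b1
        _ = (16 * exp (LL R)) * 2 ^ i := by rw [pow_add]; ring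
    have := le_of_mul_le_mul_right e1 (by positivity)
    linarith [exp_pos (LL R)]
  have hI : R ^ (1 / 2 : ℝ) ≤ 2 ^ i := by
    have : (2 : ℝ) ^ (4 + i) = 16 * 2 ^ i := by rw [pow_add]; norm_num
    rw [this] at hk5
    linarith
  obtain ⟨l2, hl1, hl2⟩ := hB Γ A l1 R (T + 2.1 * CC * R / UU R)
    (c + CC * R * (log R) ^ (-0.5 : ℝ)) i t hRB hk3 (hk4.trans hE) (by linarith) hI ht2
  rw [ht] at hl2
  rw [p5_eq h.X0, p05_eq h.X0] at hl1
  rw [p05_eq h.X0] at hl2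
  refine ⟨l2, ?_, ?_⟩
  · rw [div_eq_mul_inv, div_eq_mul_inv]
    exact hl1
  · rw [div_eq_mul_inv (CB * R)]
    exact hl2

/-! ## A good scale, and the looks at this scale -/

theorem exists_scale (hHM : HMono) {Γ : Type} [AddCommGroup Γ] (lam : Law Γ) (M : ℕ) (hM : 1 ≤ M)
    (B : ℝ) (hB : lam.h (2 ^ M) ≤ B) :
    ∃ j, j ≤ M ∧ (2 : ℝ) ^ j * (lam.h (2 ^ j + 1) - lam.h (2 ^ j)) ≤ 2 * B / M := by
  have hM0 : (0 : ℝ) < M := Nat.cast_pos.mpr hM
  have h1 : ∑ i ∈ range M, (lam.h (2 ^ (i + 1)) - lam.h (2 ^ i)) ≤ ∑ _i ∈ range M, B / M := by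
    rw [Finset.sum_range_sub (fun i => lam.h (2 ^ i)), sum_const, card_range, nsmul_eq_mul,
      mul_div_cancel₀ _ hM0.ne']
    have := (hHM Γ lam (2 ^ 0)).1
    linarith
  obtain ⟨i, hi, hi2⟩ := exists_le_of_sum_le (nonempty_range_iff.mpr (by omega)) h1
  refine ⟨i + 1, mem_range.mp hi, ?_⟩
  have h2 := slope_le hHM lam (2 ^ i) (2 ^ (i + 1)) (Nat.pow_le_pow_right (by norm_num) (by omega))
  push_cast at h2
  have e : (2 : ℝ) * B / M = 2 * (B / M) := by ring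
  rw [e]
  have e2 : (2 : ℝ) ^ (i + 1) = 2 * 2 ^ i := by ring
  rw [e2] at h2 ⊢
  nlinarith

theorem looks_bound (hHM : HMono) (hLB : LookB) {Γ : Type} [AddCommGroup Γ] (lam : Law Γ)
    (M j x : ℕ) (hj : j ≤ M) (hx : 1 ≤ x) (B : ℝ) (hB : lam.h (2 ^ M) ≤ B) :
    (lam.looks (2 ^ j) (x * 2 ^ j)).h (32 * 2 ^ M) ≤ lam.h (2 ^ M) + 64 / (x : ℝ) * B := by
  have hx0 : (0 : ℝ) < x := Nat.cast_pos.mpr hx
  have h2j : (0 : ℝ) < 2 ^ j := by positivity
  have h := hLB Γ lam (2 ^ j) (x * 2 ^ j) (2 ^ (M - j)) (32 * 2 ^ j)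
    (Nat.mul_pos hx (Nat.pow_pos (by norm_num))) (Nat.pow_pos (by norm_num))
  have e1 : 32 * 2 ^ j * 2 ^ (M - j) = 32 * 2 ^ M := by
    rw [mul_assoc, ← pow_add]; congr 2; omega
  have e2 : 2 ^ (M - j) * 2 ^ j = 2 ^ M := by
    rw [← pow_add]; congr 1; omega
  rw [e1, e2] at h
  push_cast at h
  have e3 : (32 : ℝ) * 2 ^ j * (2 / (x * 2 ^ j)) = 64 / x := by
    field_simp; norm_num
  rw [e3] at h
  refine h.trans (add_le_add_right (mul_le_mul_of_nonneg_left ?_ (by positivity)) _)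
  have a1 := (hHM Γ (lam.looks (2 ^ j) (x * 2 ^ j)) (2 ^ (M - j))).2.2.2.1
  have a2 := (hHM Γ lam (2 ^ (M - j))).2.2.2.2.2
  have a3 : lam.h (2 ^ (M - j)) ≤ lam.h (2 ^ M) :=
    h_mono hHM lam (Nat.pow_le_pow_right (by norm_num) (Nat.sub_le _ _))
  linarith

/-- section 5, step (4): one round of looks and truncation -/
theorem star (hHM : HMono) (hT : Trunc) (hLA : LookA) (hLB : LookB) {CC CB : ℝ} {Γ : Type}
    [AddCommGroup Γ] {A : Finset Γ} {lam : Law Γ} {R c : ℝ} {M : ℕ} (h : Par CC CB R)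
    (hc : lam.costLe A c) (hM : R / UU R ≤ 2 ^ M) (hE : lam.h (2 ^ M) ≤ 1.3 * R) :
    ∃ lam' : Law Γ, lam'.costLe A (c + (42 * R / UU R ^ 90 + 10)) ∧
      lam'.h (2 ^ (M + 1)) ≤ lam.h (2 ^ M) + 90 * R / UU R ^ 10 := by
  have hu0 := h.u0
  have hu1 := h.u1
  have hu1000 := h.u1000
  have hR0 := h.R0
  have hMu := h.le_M hM
  set u := UU R with hu
  have hM1r : (1 : ℝ) ≤ M := (one_le_pow₀ hu1).trans hMu
  have hM1 : 1 ≤ M := by exact_mod_cast hM1r
  obtain ⟨j, hj, hj2⟩ := exists_scale hHM lam M hM1 (1.3 * R) hE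
  have hu10 : 1 ≤ u ^ 10 := one_le_pow₀ hu1
  obtain ⟨x, hx1, hx2⟩ : ∃ x : ℕ, u ^ 10 ≤ x ∧ (x : ℝ) ≤ 2 * u ^ 10 := by
    refine ⟨⌈u ^ 10⌉₊, Nat.le_ceil _, ?_⟩
    have := (Nat.ceil_lt_add_one (pow_nonneg hu0.le 10)).le
    linarith
  have hx0 : (0 : ℝ) < x := lt_of_lt_of_le (by positivity) hx1
  have hx3 : 1 ≤ x := by exact_mod_cast hu10.trans hx1
  have hlb := looks_bound hHM hLB lam M j x hj hx3 (1.3 * R) hE
  have hK : Hc lam.μ lam.a lam.z - Hc (lam.looks (2 ^ j) (x * 2 ^ j)).μ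
      (lam.looks (2 ^ j) (x * 2 ^ j)).a (lam.looks (2 ^ j) (x * 2 ^ j)).z
        ≤ 5.2 * R / u ^ 90 := by
    refine (hLA Γ lam (2 ^ j) (x * 2 ^ j)).trans ?_
    push_cast
    have hs : 0 ≤ (2 : ℝ) ^ j * (lam.h (2 ^ j + 1) - lam.h (2 ^ j)) :=
      mul_nonneg (by positivity) (sub_nonneg.mpr (hHM Γ lam (2 ^ j)).2.1)
    calc (x : ℝ) * 2 ^ j * (lam.h (2 ^ j + 1) - lam.h (2 ^ j))
        = x * (2 ^ j * (lam.h (2 ^ j + 1) - lam.h (2 ^ j))) := by ring
      _ ≤ 2 * u ^ 10 * (2 * (1.3 * R) / M) :=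
        mul_le_mul hx2 hj2 hs (by positivity)
      _ ≤ 2 * u ^ 10 * (2 * (1.3 * R) / u ^ 100) := by
        refine mul_le_mul_of_nonneg_left ?_ (by positivity)
        exact div_le_div_of_nonneg_left (by positivity) (by positivity) hMu
      _ = 5.2 * R / u ^ 90 := by
        have : u ^ 100 = u ^ 10 * u ^ 90 := by rw [← pow_add]
        rw [this]
        field_simp
        norm_num
  obtain ⟨l1, hl1, hl2⟩ := trunc_ref hT (looks_ref lam (2 ^ j) (x * 2 ^ j)) hc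
    (fun ω => (hc ω.1).1) hK
  have h2M : 2 ≤ 2 ^ M := by
    calc 2 = 2 ^ 1 := rfl
      _ ≤ 2 ^ M := Nat.pow_le_pow_right (by norm_num) hM1
  have hl3 := hl2 (32 * 2 ^ M) (by omega)
  have e16 : 32 * 2 ^ M / 16 = 2 ^ (M + 1) := by
    rw [pow_succ]; omega
  rw [e16] at hl3
  refine ⟨l1, costLe_mono hl1 ?_, hl3.trans ?_⟩
  · have e : 42 * R / u ^ 90 = 8 * (5.2 * R / u ^ 90) + 0.4 * (R / u ^ 90) := by ring
    have h1 : 0 ≤ 0.4 * (R / u ^ 90) := by positivity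
    have h2 := log_two_lt_d9
    rw [e]
    linarith
  · have hH0 := (hHM Γ lam (2 ^ M)).1
    set H := lam.h (2 ^ M) with hH
    have hP0 : (0 : ℝ) < 2 ^ M := by positivity
    have b1 : (lam.looks (2 ^ j) (x * 2 ^ j)).h (32 * 2 ^ M) ≤ H + 83.2 * (R / u ^ 10) := by
      refine hlb.trans (add_le_add_right ?_ _)
      calc 64 / (x : ℝ) * (1.3 * R) ≤ 64 / u ^ 10 * (1.3 * R) := by
            refine mul_le_mul_of_nonneg_right ?_ (by positivity)
            exact div_le_div_of_nonneg_left (by norm_num) (by positivity) hx1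
        _ = 83.2 * (R / u ^ 10) := by ring
    have b2 : 56 / (((32 * 2 ^ M : ℕ)) : ℝ) ≤ 1.75 * (u / R) := by
      push_cast
      have hinv : R / u * (u / R) = 1 := by field_simp
      have : 1 ≤ 2 ^ M * (u / R) := by
        rw [← hinv]
        exact mul_le_mul_of_nonneg_right hM (by positivity)
      rw [div_le_iff₀ (by positivity)]
      nlinarith
    have b3 : R / u ^ 10 ≤ R := div_le_self hR0.le hu10
    have b4 : 0 ≤ R / u ^ 10 := by positivity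
    have b5 : 1.75 * (u / R) * (H + 83.2 * (R / u ^ 10)) ≤ 148 * u := by
      calc 1.75 * (u / R) * (H + 83.2 * (R / u ^ 10))
          ≤ 1.75 * (u / R) * (1.3 * R + 83.2 * R) := by
            refine mul_le_mul_of_nonneg_left ?_ (by positivity)
            linarith
        _ = 147.875 * u := by field_simp; norm_num
        _ ≤ 148 * u := by nlinarith
    have b6 : 148 * u ≤ 6.8 * (R / u ^ 10) := by
      rw [← mul_div_assoc, le_div_iff₀ (by positivity)]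
      have c1 : u ^ 12 ≤ R := (pow_le_pow_right₀ hu1 (by norm_num)).trans h.hR
      have c2 : u * u ^ 10 * 1000 ≤ u ^ 12 := by
        have : u ^ 12 = u * u ^ 10 * u := by ring
        rw [this]
        exact mul_le_mul_of_nonneg_left hu1000 (by positivity)
      nlinarith [mul_pos hu0 (pow_pos hu0 10)]
    have b7 : (1 + 56 / (((32 * 2 ^ M : ℕ)) : ℝ)) * (lam.looks (2 ^ j) (x * 2 ^ j)).h (32 * 2 ^ M)
        ≤ (1 + 56 / (((32 * 2 ^ M : ℕ)) : ℝ)) * (H + 83.2 * (R / u ^ 10)) :=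
      mul_le_mul_of_nonneg_left b1 (by positivity)
    have b8 : 56 / (((32 * 2 ^ M : ℕ)) : ℝ) * (H + 83.2 * (R / u ^ 10))
        ≤ 1.75 * (u / R) * (H + 83.2 * (R / u ^ 10)) :=
      mul_le_mul_of_nonneg_right b2 (by positivity)
    have e9 : 90 * R / u ^ 10 = 90 * (R / u ^ 10) := by ring
    rw [e9]
    nlinarith

/-! ## The functional and its near-minimiser -/

/-- the values of the functional `h(2^M) + u c` over the laws of cost at most `c` -/
def SS {Γ : Type} [AddCommGroup Γ] (A : Finset Γ) (u : ℝ) (M : ℕ) : Set ℝ :=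
  {φ | ∃ (lam : Law Γ) (c : ℝ), lam.costLe A c ∧ 0 ≤ c ∧ φ = lam.h (2 ^ M) + u * c}

theorem near_min (hHM : HMono) {Γ : Type} [AddCommGroup Γ] (A : Finset Γ) {u : ℝ} (hu : 0 ≤ u)
    (M : ℕ) {φ0 : ℝ} (hφ : φ0 ∈ SS A u M) :
    ∃ (lam : Law Γ) (c : ℝ), lam.costLe A c ∧ 0 ≤ c ∧ lam.h (2 ^ M) + u * c ≤ φ0 + 1 ∧
      ∀ (lam' : Law Γ) (c' : ℝ), lam'.costLe A c' → 0 ≤ c' →
        lam.h (2 ^ M) + u * c ≤ lam'.h (2 ^ M) + u * c' + 1 := by
  have hbdd : BddBelow (SS A u M) := by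
    refine ⟨0, ?_⟩
    rintro φ ⟨lam, c, -, hc0, rfl⟩
    have := (hHM Γ lam (2 ^ M)).1
    positivity
  obtain ⟨φ, ⟨lam, c, hc, hc0, rfl⟩, hlt⟩ :=
    exists_lt_of_csInf_lt ⟨φ0, hφ⟩ (lt_add_one (sInf (SS A u M)))
  have key : ∀ φ' ∈ SS A u M, lam.h (2 ^ M) + u * c ≤ φ' + 1 := fun φ' hφ' => by
    have := csInf_le hbdd hφ'
    linarith
  exact ⟨lam, c, hc, hc0, key _ hφ, fun lam' c' h1 h2 => key _ ⟨lam', c', h1, h2, rfl⟩⟩

theorem core_of (hHM : HMono) (hT : Trunc) (hLA : LookA) (hLB : LookB) (hB : LemmaB)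
    (hC : LemmaC) : Core := by
  obtain ⟨CB, RB, hCB, hB⟩ := hB
  obtain ⟨CC, RC, hCC, hC⟩ := hC
  obtain ⟨R1, hR1⟩ := par_exists CC CB hCC hCB
  refine ⟨0.01, 100 + 4 * CC + 3 * CB, max R1 (max RB RC), by norm_num,
    fun Γ _ A R hR hA hlA hTh => ?_⟩
  have h : Par CC CB R := hR1 R ((le_max_left _ _).trans hR)
  have hRB : RB ≤ R := ((le_max_left _ _).trans (le_max_right _ _)).trans hR
  have hRC : RC ≤ R := ((le_max_right _ _).trans (le_max_right _ _)).trans hR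
  rw [p01_eq h.X0]
  have hu0 := h.u0
  have hu1 := h.u1
  have hu1000 := h.u1000
  have hR0 := h.R0
  have hbig := h.hu
  have hRu := h.hR
  have hstep := fun (lam : Law Γ) (c : ℝ) (n m : ℕ) (hc : lam.costLe A c) =>
    step_CB (n := n) (m := m) hC hB h hRC hRB hlA hc
  have hstar := fun (lam : Law Γ) (c : ℝ) (M : ℕ) (hc : lam.costLe A c) =>
    star (M := M) hHM hT hLA hLB h hc
  set u := UU R with hu
  -- the scale
  have hRu1 : 1 ≤ R / u := by
    rw [one_le_div hu0]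
    calc u = u ^ 1 := (pow_one u).symm
      _ ≤ u ^ 100 := pow_le_pow_right₀ hu1 (by norm_num)
      _ ≤ R := hRu
  obtain ⟨M', hM'1, hM'2⟩ := exists_nat_pow_near hRu1 (by norm_num : (1 : ℝ) < 2)
  obtain ⟨M, hM⟩ : ∃ M, M = M' + 1 := ⟨_, rfl⟩
  rw [← hM] at hM'2
  have hM1 : R / u ≤ 2 ^ M := hM'2.le
  have hM2 : (2 : ℝ) ^ M ≤ 2 * R / u := by
    rw [hM, pow_succ, mul_div_assoc]
    linarith
  have hM3 : (2 : ℝ) ^ M ≤ 4 * R / u := by
    refine hM2.trans ?_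
    rw [mul_div_assoc, mul_div_assoc]
    linarith
  have hM4 : (2 : ℝ) ^ (M + 1) ≤ 4 * R / u := by
    have e : 4 * R / u = 2 * (2 * R / u) := by ring
    rw [pow_succ, e]
    linarith
  have hM5 : R / u ≤ 2 ^ (M + 1) := by
    refine hM1.trans (pow_le_pow_right₀ (by norm_num) (by omega))
  -- small quantities
  have hRu0 : 0 < R / u := by positivity
  have s1 : R / u ≤ 0.001 * R := by
    rw [div_le_iff₀ hu0]
    nlinarith
  have s2 : CC * (R / u) ≤ 0.01 * R := by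
    rw [← mul_div_assoc, div_le_iff₀ hu0]
    nlinarith
  have s3 : CB * (R / u) ≤ 0.01 * R := by
    rw [← mul_div_assoc, div_le_iff₀ hu0]
    nlinarith
  have hdiv : ∀ k : ℕ, 1 ≤ k → R / u ^ k ≤ R / u := fun k hk => by
    refine div_le_div_of_nonneg_left hR0.le hu0 ?_
    calc u = u ^ 1 := (pow_one u).symm
      _ ≤ u ^ k := pow_le_pow_right₀ hu1 hk
  have q50 : u * (CC * R / u ^ 50) ≤ CC * (R / u) := by
    have e : u * (CC * R / u ^ 50) = CC * (R / u ^ 49) := by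
      have : u ^ 50 = u * u ^ 49 := by ring
      rw [this]; field_simp
    rw [e]
    exact mul_le_mul_of_nonneg_left (hdiv 49 (by norm_num)) hCC.le
  have q5 : u * (CB * R / u ^ 5) ≤ CB * (R / u) := by
    have e : u * (CB * R / u ^ 5) = CB * (R / u ^ 4) := by
      have : u ^ 5 = u * u ^ 4 := by ring
      rw [this]; field_simp
    rw [e]
    exact mul_le_mul_of_nonneg_left (hdiv 4 (by norm_num)) hCB.le
  have q5' : CB * R / u ^ 5 ≤ CB * (R / u) := by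
    rw [mul_div_assoc]
    exact mul_le_mul_of_nonneg_left (hdiv 5 (by norm_num)) hCB.le
  have q5n : 0 ≤ CB * R / u ^ 5 := by positivity
  have q50n : 0 ≤ CC * R / u ^ 50 := by positivity
  have qD : u * (42 * R / u ^ 90 + 10) + 1 ≤ R / u ^ 10 := by
    have e : u * (42 * R / u ^ 90 + 10) + 1 = 42 * (R / u ^ 89) + 10 * u + 1 := by
      have : u ^ 90 = u * u ^ 89 := by ring
      rw [this]; field_simp
    rw [e, le_div_iff₀ (by positivity)]
    have e2 : R / u ^ 89 * u ^ 10 = R / u ^ 79 := by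
      have : u ^ 89 = u ^ 79 * u ^ 10 := by ring
      rw [this]; field_simp
    have e3 := hdiv 79 (by norm_num)
    have c1 : u ^ 12 ≤ R := (pow_le_pow_right₀ hu1 (by norm_num)).trans hRu
    have c2 : u * u ^ 10 * 1000 ≤ u ^ 12 := by
      have : u ^ 12 = u * u ^ 10 * u := by ring
      rw [this]
      exact mul_le_mul_of_nonneg_left hu1000 (by positivity)
    have c3 : u ^ 10 ≤ u * u ^ 10 := le_mul_of_one_le_left (by positivity) hu1
    have e4 : (42 * (R / u ^ 89) + 10 * u + 1) * u ^ 10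
        = 42 * (R / u ^ 89 * u ^ 10) + 10 * (u * u ^ 10) + u ^ 10 := by ring
    rw [e4, e2]
    linarith
  have qD2 : R / u ^ 10 ≤ R / u := hdiv 10 (by norm_num)
  have qDn : 0 ≤ 42 * R / u ^ 90 + 10 := by positivity
  have qD3 : 42 * R / u ^ 90 + 10 ≤ u * (42 * R / u ^ 90 + 10) := le_mul_of_one_le_left qDn hu1
  -- the set is nonempty
  have hcast : ((2 ^ M : ℕ) : ℝ) = 2 ^ M := by push_cast; rfl
  have hcast2 : ((2 ^ (M + 1) : ℕ) : ℝ) = 2 ^ (M + 1) := by push_cast; rfl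
  have hT0 : (unif A hA).Theta (2 ^ M) ≤ 1.1 * R :=
    hTh _ _ (fun ω => (unif_cost A hA ω).1) (by rw [hcast]; exact hM3)
  obtain ⟨l0, hl0, hl0'⟩ := hstep (unif A hA) 0 M M (unif_cost A hA) le_rfl (by omega) hM1 hM3 hT0
  rw [zero_add] at hl0
  obtain ⟨lam, c, hc, hc0, hΦ, hmin⟩ := near_min hHM A hu0.le M
    (⟨l0, _, hl0, by positivity, rfl⟩ : l0.h (2 ^ M) + u * (CC * R / u ^ 50 + CB * R / u ^ 5) ∈ SS A u M)
  have e21 : 2.1 * CC * R / u = 2.1 * (CC * (R / u)) := by ring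
  rw [e21] at hl0'
  have hR1000 : 1000 ≤ R := by
    calc (1000 : ℝ) ≤ u := hu1000
      _ = u ^ 1 := (pow_one u).symm
      _ ≤ u ^ 100 := pow_le_pow_right₀ hu1 (by norm_num)
      _ ≤ R := hRu
  have hΦ2 : lam.h (2 ^ M) + u * c ≤ 1.2 * R := by
    refine hΦ.trans ?_
    rw [mul_add]
    linarith
  have hlam0 := (hHM Γ lam (2 ^ M)).1
  have huc : 0 ≤ u * c := by positivity
  have hE : lam.h (2 ^ M) ≤ 1.3 * R := by linarith
  have hcle : c ≤ 1.2 * (R / u) := by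
    rw [← mul_div_assoc, le_div_iff₀ hu0]
    linarith
  -- the output law
  obtain ⟨ls, hls1, hls2⟩ := hstar lam c M hc hM1 hE
  have hTs : ls.Theta (2 ^ (M + 1)) ≤ 1.1 * R :=
    hTh _ _ (fun ω => (hls1 ω).1) (by rw [hcast2]; exact hM4)
  obtain ⟨lp, hlp1, hlp2⟩ := hstep ls _ M (M + 1) hls1 (by omega) le_rfl hM5 hM4 hTs
  have hmin1 := hmin ls _ hls1 (by positivity)
  have hmin2 := hmin lp _ hlp1 (by positivity)
  have e90 : 90 * R / u ^ 10 = 90 * (R / u ^ 10) := by ring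
  rw [e90] at hls2
  rw [e21] at hlp2
  refine ⟨ls, M + 1, costLe_mono hls1 ?_, hM4, ?_, ?_⟩
  · -- the cost
    have e : (100 + 4 * CC + 3 * CB) * R * u⁻¹
        = 100 * (R / u) + 4 * (CC * (R / u)) + 3 * (CB * (R / u)) := by
      rw [div_eq_mul_inv]; ring
    rw [e]
    have n1 : 0 ≤ CC * (R / u) := by positivity
    have n2 : 0 ≤ CB * (R / u) := by positivity
    linarith
  · -- the slope
    have h1 := slope_le hHM ls (2 ^ M) (2 ^ (M + 1))
      (Nat.pow_le_pow_right (by norm_num) (by omega))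
    rw [hcast, hcast2] at h1
    have e2 : (2 : ℝ) ^ (M + 1) - 2 ^ M = 2 ^ M := by ring
    rw [e2] at h1
    have h2 : ls.h (2 ^ (M + 1)) - ls.h (2 ^ M) ≤ 91 * (R / u ^ 10) := by
      rw [mul_add] at hmin1
      linarith
    have hs0 : 0 ≤ ls.h (2 ^ (M + 1) + 1) - ls.h (2 ^ (M + 1)) :=
      sub_nonneg.mpr (hHM Γ ls (2 ^ (M + 1))).2.1
    set s := ls.h (2 ^ (M + 1) + 1) - ls.h (2 ^ (M + 1)) with hs
    have h3 : R / u * s ≤ R / u * (91 / u ^ 9) := by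
      calc R / u * s ≤ 2 ^ M * s := mul_le_mul_of_nonneg_right hM1 hs0
        _ ≤ ls.h (2 ^ (M + 1)) - ls.h (2 ^ M) := h1
        _ ≤ 91 * (R / u ^ 10) := h2
        _ = R / u * (91 / u ^ 9) := by
          have : u ^ 10 = u * u ^ 9 := by ring
          rw [this]; field_simp
    have h4 : s ≤ 91 / u ^ 9 := le_of_mul_le_mul_left h3 hRu0
    refine h4.trans ?_
    rw [← div_eq_mul_inv]
    have h5 : u ≤ u ^ 9 := by
      calc u = u ^ 1 := (pow_one u).symm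
        _ ≤ u ^ 9 := pow_le_pow_right₀ hu1 (by norm_num)
    calc 91 / u ^ 9 ≤ 91 / u := div_le_div_of_nonneg_left (by norm_num) hu0 h5
      _ ≤ (100 + 4 * CC + 3 * CB) / u := by
        refine div_le_div_of_nonneg_right ?_ hu0.le
        linarith
  · -- the entropy
    have e : (100 + 4 * CC + 3 * CB) * R * u⁻¹
        = 100 * (R / u) + 4 * (CC * (R / u)) + 3 * (CB * (R / u)) := by
      rw [div_eq_mul_inv]; ring
    rw [e]
    have n1 : 0 ≤ CC * (R / u) := by positivity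
    have n2 : 0 ≤ CB * (R / u) := by positivity
    have e3 : u * (c + (42 * R / u ^ 90 + 10) + CC * R / u ^ 50 + CB * R / u ^ 5)
        = u * c + u * (42 * R / u ^ 90 + 10) + u * (CC * R / u ^ 50) + u * (CB * R / u ^ 5) := by
      ring
    rw [e3] at hmin2
    linarith

end Vale.Agent.P091.AD.H188
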