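import Vale.Agent.P091.AD.Base

/-!
# P091, block AD, row AD-5 (helper188): the Gibbs law, `theorem gibbs_holds : Gibbs`
-/

set_option autoImplicit false

open Finset Real
open Vale.Agent.P065.Ent

noncomputable section

namespace Vale.Agent.P091.AD.H188

/-- invariance of the probabilities under a symmetry of the weight -/
lemma Pr_symm {Ω X : Type*} [Fintype Ω] {μ : Ω → ℝ} (e : Ω ≃ Ω) (hμ : ∀ ω, μ (e ω) = μ ω)
    (F : Ω → X) (hF : ∀ v u, F (e v) = F (e u) ↔ F v = F u) (u : Ω) :
    Pr μ F (F (e u)) = Pr μ F (F u) := by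
  classical
  unfold Pr
  rw [← Equiv.sum_comp e]
  refine sum_congr rfl fun v _ => ?_
  rw [hμ]
  by_cases h : F v = F u
  · rw [if_pos h, if_pos ((hF v u).2 h)]
  · rw [if_neg h, if_neg fun h' => h ((hF v u).1 h')]

lemma Pr_id {Ω : Type*} [Fintype Ω] (μ : Ω → ℝ) (ω : Ω) : Pr μ (fun u => u) ω = μ ω := by
  classical
  unfold Pr
  rw [sum_ite_eq' univ ω μ, if_pos (mem_univ ω)]

lemma pw_symm {p : ℕ} {L : Type*} (b : L → ℝ) (σ : Equiv.Perm (Fin p)) (u : Fin p → L) :
    pw b (fun i => u (σ i)) = pw b u := by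
  unfold pw
  exact Equiv.prod_comp σ fun i => b (u i)

lemma sm_symm {p : ℕ} {L Γ : Type*} [AddCommMonoid Γ] (N : L → Γ) (σ : Equiv.Perm (Fin p))
    (u : Fin p → L) : sm N (fun i => u (σ i)) = sm N u := by
  unfold sm
  exact Equiv.sum_comp σ fun i => N (u i)

/-- relabelling of words -/
def perm {p : ℕ} (L : Type*) (σ : Equiv.Perm (Fin p)) : (Fin p → L) ≃ (Fin p → L) where
  toFun u := fun i => u (σ i)
  invFun u := fun i => u (σ.symm i)
  left_inv u := by funext i; simp
  right_inv u := by funext i; simp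

lemma lb_symm {p : ℕ} {L Z : Type*} (zl : L → Z) (σ : Equiv.Perm (Fin p)) (u v : Fin p → L) :
    lb zl (perm L σ v) = lb zl (perm L σ u) ↔ lb zl v = lb zl u := by
  constructor
  · intro h
    funext i
    have := congrFun h (σ.symm i)
    simpa [lb, perm] using this
  · intro h
    funext i
    exact congrFun h (σ i)

/-- the conditional probabilities are symmetric -/
lemma cp_symm {Γ : Type} [AddCommGroup Γ] (lam : Law Γ) {p : ℕ} (σ : Equiv.Perm (Fin p))
    (u : Fin p → lam.Lt) : lam.cp p (fun i => u (σ i)) = lam.cp p u := by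
  unfold Law.cp
  have h1 := Pr_symm (μ := pw lam.beta) (perm lam.Lt σ) (fun ω => pw_symm _ σ ω)
    (fun v : Fin p → lam.Lt => (sm lam.N v, lb lam.zl v)) (fun v w => by
      have e : ∀ v : Fin p → lam.Lt, sm lam.N (perm lam.Lt σ v) = sm lam.N v :=
        fun v => sm_symm _ σ v
      constructor
      · intro h
        have h1 := congrArg Prod.fst h
        have h2 := congrArg Prod.snd h
        simp only [e] at h1
        exact Prod.ext h1 ((lb_symm lam.zl σ w v).1 h2)
      · intro h
        have h1 := congrArg Prod.fst h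
        have h2 := congrArg Prod.snd h
        exact Prod.ext (by simpa only [e] using h1) ((lb_symm lam.zl σ w v).2 h2)) u
  have h2 := Pr_symm (μ := pw lam.beta) (perm lam.Lt σ) (fun ω => pw_symm _ σ ω)
    (lb lam.zl) (fun v w => lb_symm lam.zl σ w v) u
  exact congrArg₂ (· / ·) h1 h2

/-- **AD-5**, (0.2): the Gibbs law. -/
theorem gibbs_holds : Gibbs := by
  classical
  intro Γ _ lam p
  set B : (Fin p → lam.Lt) → ℝ := pw lam.beta with hB
  have hBp : IsProb B := pw_isProb lam.beta_isProb
  set S : (Fin p → lam.Lt) → Γ := sm lam.N with hS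
  set Lb : (Fin p → lam.Lt) → (Fin p → lam.Z) := lb lam.zl with hL
  set q : (Fin p → lam.Z) → Γ → ℝ := fun y x =>
    Pr B (fun v => (S v, Lb v)) (x, y) / Pr B Lb y with hq
  have hcp : ∀ u, lam.cp p u = q (Lb u) (S u) := fun u => rfl
  have hcp0 : ∀ u, 0 ≤ lam.cp p u := fun u => by
    rw [hcp]; exact div_nonneg (Pr_nonneg hBp _ _) (Pr_nonneg hBp _ _)
  have hcppos : ∀ u, 0 < B u → 0 < lam.cp p u := fun u hu => by
    rw [hcp]
    have p1 := Pr_pos hBp (fun v => (S v, Lb v)) hu
    have p2 := Pr_pos hBp Lb hu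
    exact div_pos p1 p2
  set Zc : ℝ := ∑ u, B u * lam.cp p u with hZ
  have hZpos : 0 < Zc := by
    obtain ⟨u, -, hu⟩ : ∃ u ∈ (univ : Finset (Fin p → lam.Lt)), 0 < B u := by
      by_contra hcon
      push Not at hcon
      have : ∑ u, B u ≤ 0 := sum_nonpos hcon
      rw [hBp.sum] at this
      linarith
    exact (mul_pos hu (hcppos u hu)).trans_le
      (single_le_sum (f := fun u => B u * lam.cp p u)
        (fun v _ => mul_nonneg (hBp.nonneg v) (hcp0 v)) (mem_univ u))
  set Q : (Fin p → lam.Lt) → ℝ := fun u => B u * lam.cp p u / Zc with hQ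
  have hQp : IsProb Q := by
    refine ⟨fun u => div_nonneg (mul_nonneg (hBp.nonneg u) (hcp0 u)) hZpos.le, ?_⟩
    rw [hQ, ← sum_div, ← hZ, div_self hZpos.ne']
  have hac : ∀ u, 0 < Q u → 0 < B u := fun u hu => by
    rcases (hBp.nonneg u).eq_or_lt with h0 | h0
    · simp only [hQ, ← h0, zero_mul, zero_div, lt_self_iff_false] at hu
    · exact h0
  refine ⟨Q, hQp, fun σ u => ?_, hac, ?_⟩
  · simp only [hQ]
    rw [cp_symm lam σ u]
    have : B (fun i => u (σ i)) = B u := pw_symm _ σ u
    rw [this]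
  -- the two terms
  have h1 := gibbs hQp S Lb q
    (fun u hu => by rw [← hcp]; exact hcppos u (hac u hu))
    (fun u x _ => div_nonneg (Pr_nonneg hBp _ _) (Pr_nonneg hBp _ _))
    (fun u => by
      simp only [hq]
      rw [← sum_div, sum_Pr_pair]
      exact div_self_le_one _)
  have h2 : Dv Q (fun u => u) B = ∑ u, Q u * log (lam.cp p u) - log Zc := by
    unfold Dv
    have e : ∀ u, Q u * log (Pr Q (fun u => u) u / B u) =
        Q u * log (lam.cp p u) - Q u * log Zc := by
      intro u
      rcases (hQp.nonneg u).eq_or_lt with h0 | h0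
      · rw [← h0]; ring
      · have hb := hac u h0
        have hc := hcppos u hb
        rw [Pr_id]
        have : Q u / B u = lam.cp p u / Zc := by
          simp only [hQ]
          field_simp
        rw [this, log_div hc.ne' hZpos.ne']; ring
    rw [sum_congr rfl fun u _ => e u, sum_sub_distrib, ← sum_mul, hQp.sum, one_mul]
  have h3 : ∑ u, Q u * -log (q (Lb u) (S u)) = - ∑ u, Q u * log (lam.cp p u) := by
    rw [← sum_neg_distrib]
    exact sum_congr rfl fun u _ => by rw [hcp]; ring
  have h4 : lam.Theta p = - log Zc := rfl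
  rw [h4, h2]
  rw [h3] at h1
  linarith

end Vale.Agent.P091.AD.H188
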